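import Vale.Agent.P032.S5.H360.Silent

/-!
# P032: rule (N) for two different colours at a silent colour

`Irr.shadow_min` : if `T z` without `i` is not sufficient near `z`, then for `x ∈ T z`, `x ≠ i`,
there is `p` on the unit circle about `z` with `x ∈ Pal U p` which is a limit of points of
`U x ∩ U l` for some `l ∈ T p`, `l ≠ i`.
`Irr.shadow_two` : if `x` occurs in no `T q`, `q` on the unit circle, there are two different
such colours `l, l' ≠ x` (the hypothesis of `Irr.no_fill`).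
-/

open Set Filter Topology Metric

noncomputable section

namespace Vale.Agent.P032.Six

variable {k : ℕ} {U : Fin k → Set ℂ} {T : ℂ → Set (Fin k)}

namespace Irr

/-- **(NN), one colour.** -/
theorem shadow_min (h : Irr U T) {z : ℂ} {x i : Fin k} (hx : x ∈ T z) (hix : i ≠ x)
    (hmin : ¬ ∀ᶠ w in 𝓝 z, ∃ j ∈ T z \ {i}, w ∈ U j ∨ (w ∈ XX U ∧ j ∈ Pal U w)) :
    ∃ p, dist p z = 1 ∧ x ∈ Pal U p ∧ ∃ l ∈ T p, l ≠ i ∧ ∃ᶠ u in 𝓝 p, u ∈ U x ∧ u ∈ U l := by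
  -- the points near `z` with colour `i` only
  have h1 : ∃ᶠ w in 𝓝 z, w ∈ U i ∧ w ∉ U x := by
    have h0 : ∃ᶠ w in 𝓝 z, ¬ ∃ j ∈ T z \ {i}, w ∈ U j ∨ (w ∈ XX U ∧ j ∈ Pal U w) :=
      not_eventually.1 hmin
    refine (h0.and_eventually (h.nhd z)).mono fun w hw => ?_
    obtain ⟨hw1, hw2⟩ := hw
    have hT : T w ⊆ {i} := by
      intro j hj
      by_contra hji
      apply hw1
      by_cases hX : w ∈ XX U
      · exact ⟨j, ⟨hw2 hj, hji⟩, Or.inr ⟨hX, h.sub w hj⟩⟩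
      · exact ⟨j, ⟨hw2 hj, hji⟩, Or.inl (h.off w hX j hj)⟩
    exact ⟨h.mem_of_single hT, fun hwx => hw1 ⟨x, ⟨hx, fun hc => hix hc.symm⟩, Or.inl hwx⟩⟩
  -- partners
  have h2 : ∃ᶠ w in 𝓝 z, ∃ g, dist w g = 1 ∧ g ∈ closure (U x) ∧ i ∉ Pal U g := by
    refine h1.mono fun w hw => ?_
    have h3 : ¬ ∀ y ∈ closure (U x), dist w y ≠ 1 := fun hc => hw.2 (h.max x w hc)
    push Not at h3
    obtain ⟨g, hg1, hg2⟩ := h3
    exact ⟨g, hg2, hg1, h.mx.notMem' hw.1 hg2⟩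
  -- a limit of partners
  obtain ⟨w, hw, hw'⟩ := exists_seq_forall_of_frequently h2
  choose g hg1 hg2 hg3 using hw'
  have hb : ∃ᶠ n in atTop, g n ∈ closedBall z 2 := by
    have h4 : ∀ᶠ n in atTop, dist (w n) z < 1 := hw (ball_mem_nhds z one_pos)
    refine (h4.mono fun n hn => ?_).frequently
    rw [mem_closedBall]
    have := dist_triangle (g n) (w n) z
    rw [dist_comm (g n) (w n), hg1 n] at this
    linarith
  obtain ⟨p, -, φ, hφ, hp⟩ := tendsto_subseq_of_frequently_bounded isBounded_closedBall hb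
  have hwφ : Tendsto (w ∘ φ) atTop (𝓝 z) := hw.comp hφ.tendsto_atTop
  have hd : dist p z = 1 := by
    have h5 : Tendsto (fun n => dist ((g ∘ φ) n) ((w ∘ φ) n)) atTop (𝓝 (dist p z)) := hp.dist hwφ
    have h6 : (fun n => dist ((g ∘ φ) n) ((w ∘ φ) n)) = fun _ => (1 : ℝ) := by
      funext n
      simp only [Function.comp]
      rw [dist_comm]; exact hg1 _
    rw [h6] at h5
    exact tendsto_nhds_unique h5 tendsto_const_nhds
  refine ⟨p, hd, isClosed_closure.mem_of_tendsto hp (Eventually.of_forall fun n => hg2 _), ?_⟩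
  -- points of `U x` near the partners
  have h7 : ∃ᶠ u in 𝓝 p, ∃ l : Fin k, l ∈ T p ∧ l ≠ i ∧ u ∈ U x ∧ u ∈ U l := by
    intro hcon
    obtain ⟨n, hn1, hn2⟩ := ((hp.eventually (eventually_eventually_nhds.2 hcon)).and
      (hp.eventually (eventually_eventually_nhds.2 (h.nhd p)))).exists
    have h8 : ∃ᶠ u in 𝓝 ((g ∘ φ) n), u ∈ U x := mem_closure_iff_frequently.1 (hg2 (φ n))
    obtain ⟨u, hu1, hu2, hu3, hu4⟩ :=
      (h8.and_eventually (hn1.and (hn2.and (h.nhd ((g ∘ φ) n))))).exists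
    obtain ⟨l, hl⟩ := h.ne u
    refine hu2 ⟨l, hu3 hl, ?_, hu1, h.off u (fun hX => hX x hu1) l hl⟩
    rintro rfl
    exact hg3 (φ n) (h.sub _ (hu4 hl))
  by_contra hcon
  push Not at hcon
  apply h7
  have h9 : ∀ l : Fin k, ∀ᶠ u in 𝓝 p, l ∈ T p → l ≠ i → u ∈ U x → u ∉ U l := by
    intro l
    by_cases hl : l ∈ T p ∧ l ≠ i
    · filter_upwards [hcon l hl.1 hl.2] with u hu _ _ h4
      exact hu h4
    · exact Eventually.of_forall fun u h4 h5 => absurd ⟨h4, h5⟩ hl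
  filter_upwards [eventually_all.2 h9] with u hu
  rintro ⟨l, h4, h5, h6, h7⟩
  exact hu l h4 h5 h6 h7

/-- **(NN).** A silent colour has two different shadows. -/
theorem shadow_two (h : Irr U T) {z : ℂ} (hz : T z = univ) {x : Fin k} (hk : ∃ i : Fin k, i ≠ x)
    (hsil : ∀ q, dist q z = 1 → x ∉ T q)
    (hmin : ∀ s, s ⊆ T z → s ≠ T z →
      ¬ ∀ᶠ w in 𝓝 z, ∃ i ∈ s, w ∈ U i ∨ (w ∈ XX U ∧ i ∈ Pal U w)) :
    ∃ l l', l ≠ l' ∧ l ≠ x ∧ l' ≠ x ∧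
      (∃ p, dist p z = 1 ∧ x ∈ Pal U p ∧ l ∈ T p ∧ ∃ᶠ u in 𝓝 p, u ∈ U x ∧ u ∈ U l) ∧
      ∃ p, dist p z = 1 ∧ x ∈ Pal U p ∧ l' ∈ T p ∧ ∃ᶠ u in 𝓝 p, u ∈ U x ∧ u ∈ U l' := by
  have main : ∀ i, i ≠ x → ∃ l, l ≠ i ∧ l ≠ x ∧
      ∃ p, dist p z = 1 ∧ x ∈ Pal U p ∧ l ∈ T p ∧ ∃ᶠ u in 𝓝 p, u ∈ U x ∧ u ∈ U l := by
    intro i hi
    obtain ⟨p, hp, hxp, l, hl, hli, hf⟩ := h.shadow_min (z := z) (x := x) (i := i)
      (by rw [hz]; exact mem_univ x) hi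
      (hmin _ sdiff_subset fun h5 => by
        have h6 : i ∈ T z \ {i} := by rw [h5, hz]; exact mem_univ i
        exact h6.2 rfl)
    exact ⟨l, hli, fun hc => hsil p hp (hc ▸ hl), p, hp, hxp, hl, hf⟩
  obtain ⟨i, hi⟩ := hk
  obtain ⟨l, -, hlx, hl⟩ := main i hi
  obtain ⟨l', hll, hlx', hl'⟩ := main l hlx
  exact ⟨l, l', hll.symm, hlx, hlx', hl, hl'⟩

end Irr

end Vale.Agent.P032.Six
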